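import Vale.Agent.P028.Asm

/-! P028: every shift, supports with controlled gcd sums / divisor numbers. -/

namespace Vale.Agent.Results.P028.GcdSums

open Vale.Agent.P028 MeasureTheory

theorem result (γ : ℝ) (ψ : ℕ → ℝ) (h0 : ∀ q, 0 ≤ ψ q) (hd : ¬ Summable ψ) (C : ℝ)
    (hS : (∀ r : ℕ, 0 < r → 0 < ψ r →
        ∑ q ∈ (Finset.Icc 1 r).filter (fun q => 0 < ψ q), (Nat.gcd q r : ℝ)
          ≤ C * r * (1 + ∑ q ∈ Finset.Icc 1 r, min (ψ q) 1)) ∨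
      (∀ r : ℕ, 0 < r → 0 < ψ r →
        (r.divisors.card : ℝ) ≤ C * (1 + ∑ q ∈ Finset.Icc 1 r, min (ψ q) 1))) :
    volume (W γ ψ)ᶜ = 0 := by
  rcases hS with hS | hS
  · exact main γ ψ h0 C hS hd
  · exact main_div γ ψ h0 C hS hd

end Vale.Agent.Results.P028.GcdSums
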